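import Vale.Agent.P170.UB3.C3
import Vale.Agent.P170.UB3.C4
import Vale.Agent.P170.UB3.C5
import Vale.Agent.P170.UB3.C6
import Vale.Agent.P170.UB3.C7
import Vale.Agent.P170.Thm3

namespace Vale.Agent.Results.P170.A0000_Combined

open Finset Filter Topology Vale.Agent.P170

/-- Conjunction of the upper bounds on the satisfiability threshold of random `k`-SAT
(one-step replica-symmetry-breaking criterion for every `k ≥ 2`, explicit densities for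
`k = 3, ..., 7`) and of the reduction of the threshold question to subsequences with bounded
consecutive ratios. -/
theorem result :
    (∀ (k : ℕ), 2 ≤ k → ∀ (T : Type) [Fintype T] (w u : T → ℝ),
      (∀ t, 0 ≤ w t) → ∑ t, w t = 1 → (∀ t, 0 ≤ u t) → (∀ t, u t < 1) →
      ∀ (α : ℝ), 0 < α → ∀ (P : ℕ),
      α * ((k : ℝ) - 1) * LamRSB k w u
        < ∑ p ∈ range P, Ahat (k - 1) w u (k * α / 2) (p + 1) ^ 2 / ((p : ℝ) + 1) →
      ∀ c : ℝ, α ≤ c → Tendsto (fun n : ℕ => satProb k n ⌊c * (n : ℝ)⌋₊) atTop (𝓝 0)) ∧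
    (∀ c : ℝ, (42668 / 10000 : ℝ) ≤ c →
      Tendsto (fun n : ℕ => satProb 3 n ⌊c * (n : ℝ)⌋₊) atTop (𝓝 0)) ∧
    (∀ c : ℝ, (9933 / 1000 : ℝ) ≤ c →
      Tendsto (fun n : ℕ => satProb 4 n ⌊c * (n : ℝ)⌋₊) atTop (𝓝 0)) ∧
    (∀ c : ℝ, (21118 / 1000 : ℝ) ≤ c →
      Tendsto (fun n : ℕ => satProb 5 n ⌊c * (n : ℝ)⌋₊) atTop (𝓝 0)) ∧
    (∀ c : ℝ, (43375 / 1000 : ℝ) ≤ c →
      Tendsto (fun n : ℕ => satProb 6 n ⌊c * (n : ℝ)⌋₊) atTop (𝓝 0)) ∧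
    (∀ c : ℝ, (87790 / 1000 : ℝ) ≤ c →
      Tendsto (fun n : ℕ => satProb 7 n ⌊c * (n : ℝ)⌋₊) atTop (𝓝 0)) ∧
    (∀ (k : ℕ), 2 ≤ k → ∀ (Λ : ℝ) (N : ℕ → ℕ), StrictMono N →
      (∀ j, (N (j + 1) : ℝ) ≤ Λ * (N j : ℝ)) →
      (∀ α : ℝ,
        (∀ c : ℝ, 0 ≤ c → c < α →
          Tendsto (fun j => satProb k (N j) ⌊c * (N j : ℝ)⌋₊) atTop (𝓝 1)) →
        ∀ c : ℝ, 0 ≤ c → c < α →
          Tendsto (fun n : ℕ => satProb k n ⌊c * (n : ℝ)⌋₊) atTop (𝓝 1)) ∧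
      (∀ β : ℝ, 0 ≤ β →
        (∀ c : ℝ, β < c →
          Tendsto (fun j => satProb k (N j) ⌊c * (N j : ℝ)⌋₊) atTop (𝓝 0)) →
        ∀ c : ℝ, β < c →
          Tendsto (fun n : ℕ => satProb k n ⌊c * (n : ℝ)⌋₊) atTop (𝓝 0)) ∧
      (∀ α : ℝ, 0 < α →
        (∀ c : ℝ, 0 ≤ c → c < α →
          Tendsto (fun j => satProb k (N j) ⌊c * (N j : ℝ)⌋₊) atTop (𝓝 1)) →
        (∀ c : ℝ, α < c →
          Tendsto (fun j => satProb k (N j) ⌊c * (N j : ℝ)⌋₊) atTop (𝓝 0)) →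
        HasLimitingThreshold k α)) := by
  refine ⟨?_, ?_, ?_, ?_, ?_, ?_, ?_⟩
  · intro k hk T _ w u hw hws hu0 hu1 α hα P hcrit
    classical
    exact one_rsb_upper k hk w u hw hws hu0 hu1 α hα P hcrit
  · intro c hc
    exact ub3_42668 c (by push_cast; exact hc)
  · intro c hc
    exact ub4_9933 c (by push_cast; exact hc)
  · intro c hc
    exact ub5_21118 c (by push_cast; exact hc)
  · intro c hc
    exact ub6_43375 c (by push_cast; exact hc)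
  · intro c hc
    exact ub7_87790 c (by push_cast; exact hc)
  · intro k hk Λ N hN hΛ
    exact ⟨fun α hlow => lower_half k hk α Λ N hN hΛ hlow,
      fun β hβ hhigh => upper_half k hk β Λ hβ N hN hΛ hhigh,
      fun α hα hlow hhigh => subseq_bounded_ratio k hk α Λ hα N hN hΛ hlow hhigh⟩

end Vale.Agent.Results.P170.A0000_Combined
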