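import Vale.Agent.P170.UB3.C3
import Vale.Agent.P170.UB3.C4
import Vale.Agent.P170.UB3.C5
import Vale.Agent.P170.UB3.C6
import Vale.Agent.P170.UB3.C7

namespace Vale.Agent.Results.P170.A000_OneRSBUpperSmallK

open Finset Filter Topology Vale.Agent.P170

/-- Upper bounds on the satisfiability threshold of random `k`-SAT.
First part: the zero-temperature one-step replica-symmetry-breaking criterion, for every `k ≥ 2`
and every finitely supported trial order parameter `ζ = ∑ t, w t • δ_{u t}` on `[0, 1)`.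
Second part: explicit densities for `k = 3, 4, 5, 6, 7` above which random `k`-SAT is
unsatisfiable with probability tending to one. -/
theorem result :
    (∀ (k : ℕ), 2 ≤ k → ∀ (T : Type) [Fintype T] (w u : T → ℝ),
      (∀ t, 0 ≤ w t) → ∑ t, w t = 1 → (∀ t, 0 ≤ u t) → (∀ t, u t < 1) →
      ∀ (α : ℝ), 0 < α → ∀ (P : ℕ),
      α * ((k : ℝ) - 1) * LamRSB k w u
        < ∑ p ∈ range P, Ahat (k - 1) w u (k * α / 2) (p + 1) ^ 2 / ((p : ℝ) + 1) →
      ∀ c : ℝ, α ≤ c → Tendsto (fun n : ℕ => satProb k n ⌊c * (n : ℝ)⌋₊) atTop (𝓝 0)) ∧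
    (∀ c : ℝ, (42668 / 10000 : ℝ) ≤ c →
      Tendsto (fun n : ℕ => satProb 3 n ⌊c * (n : ℝ)⌋₊) atTop (𝓝 0)) ∧
    (∀ c : ℝ, (9933 / 1000 : ℝ) ≤ c →
      Tendsto (fun n : ℕ => satProb 4 n ⌊c * (n : ℝ)⌋₊) atTop (𝓝 0)) ∧
    (∀ c : ℝ, (21118 / 1000 : ℝ) ≤ c →
      Tendsto (fun n : ℕ => satProb 5 n ⌊c * (n : ℝ)⌋₊) atTop (𝓝 0)) ∧
    (∀ c : ℝ, (43375 / 1000 : ℝ) ≤ c →
      Tendsto (fun n : ℕ => satProb 6 n ⌊c * (n : ℝ)⌋₊) atTop (𝓝 0)) ∧
    (∀ c : ℝ, (87790 / 1000 : ℝ) ≤ c →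
      Tendsto (fun n : ℕ => satProb 7 n ⌊c * (n : ℝ)⌋₊) atTop (𝓝 0)) := by
  refine ⟨?_, ?_, ?_, ?_, ?_, ?_⟩
  · intro k hk T _ w u hw hws hu0 hu1 α hα P hcrit
    classical
    exact one_rsb_upper k hk w u hw hws hu0 hu1 α hα P hcrit
  · intro c hc
    exact ub3_42668 c (by push_cast; exact hc)
  · intro c hc
    exact ub4_9933 c (by push_cast; exact hc)
  · intro c hc
    exact ub5_21118 c (by push_cast; exact hc)
  · intro c hc
    exact ub6_43375 c (by push_cast; exact hc)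
  · intro c hc
    exact ub7_87790 c (by push_cast; exact hc)

end Vale.Agent.Results.P170.A000_OneRSBUpperSmallK
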