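import Vale.Agent.P170.UB3.C3

namespace Vale.Agent.Results.P170.A00_ThreeSatUpper42668

open Filter Topology Vale.Agent.P170

/-- Random 3-SAT is unsatisfiable with probability tending to one at every clause density
`c ≥ 4.2668`. -/
theorem result : ∀ c : ℝ, (42668 / 10000 : ℝ) ≤ c →
    Tendsto (fun n : ℕ => satProb 3 n ⌊c * (n : ℝ)⌋₊) atTop (𝓝 0) := by
  intro c hc
  exact ub3_42668 c (by push_cast; exact hc)

end Vale.Agent.Results.P170.A00_ThreeSatUpper42668
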