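import Vale.Agent.P170.UB2.OneRSB

namespace Vale.Agent.Results.P170.A1_OneRSBUpperAllK

open Finset Filter Topology Vale.Agent.P170

/-- The zero-temperature one-step replica-symmetry-breaking upper bound on the satisfiability
threshold, for every `k ≥ 2` and every finitely supported trial order parameter
`ζ = ∑ t, w t • δ_{u t}` on `[0, 1)`: if the complexity functional is negative at density `α`,
then random `k`-SAT is unsatisfiable with probability tending to one at every density `c ≥ α`. -/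
theorem result (k : ℕ) (hk : 2 ≤ k) {T : Type} [Fintype T] (w u : T → ℝ)
    (hw : ∀ t, 0 ≤ w t) (hws : ∑ t, w t = 1) (hu0 : ∀ t, 0 ≤ u t) (hu1 : ∀ t, u t < 1)
    (α : ℝ) (hα : 0 < α) (P : ℕ)
    (hcrit : α * ((k : ℝ) - 1) * LamRSB k w u
      < ∑ p ∈ range P, Ahat (k - 1) w u (k * α / 2) (p + 1) ^ 2 / ((p : ℝ) + 1)) :
    ∀ c : ℝ, α ≤ c → Tendsto (fun n : ℕ => satProb k n ⌊c * (n : ℝ)⌋₊) atTop (𝓝 0) := by
  classical
  exact one_rsb_upper k hk w u hw hws hu0 hu1 α hα P hcrit

end Vale.Agent.Results.P170.A1_OneRSBUpperAllK
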