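import Vale.Agent.P170.Thm3

namespace Vale.Agent.Results.P170.BoundedRatioSubseq

open Filter Topology Vale.Agent.P170

/-- Let `N j` be a strictly increasing sequence of numbers of variables with bounded consecutive
ratios, `N (j+1) ≤ Λ * N j` (for instance `N j = 2 ^ j`).  Then, for every `k ≥ 2`:
(1) whp-satisfiability at all densities below `α` along `N` implies it along all `n`;
(2) whp-unsatisfiability at all densities above `β` along `N` implies it along all `n`;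
(3) hence threshold behaviour with constant `α` along `N` implies that random `k`-SAT has the
limiting threshold `α`. -/
theorem result (k : ℕ) (hk : 2 ≤ k) (Λ : ℝ) (N : ℕ → ℕ) (hN : StrictMono N)
    (hΛ : ∀ j, (N (j + 1) : ℝ) ≤ Λ * (N j : ℝ)) :
    (∀ α : ℝ,
      (∀ c : ℝ, 0 ≤ c → c < α →
        Tendsto (fun j => satProb k (N j) ⌊c * (N j : ℝ)⌋₊) atTop (𝓝 1)) →
      ∀ c : ℝ, 0 ≤ c → c < α →
        Tendsto (fun n : ℕ => satProb k n ⌊c * (n : ℝ)⌋₊) atTop (𝓝 1)) ∧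
    (∀ β : ℝ, 0 ≤ β →
      (∀ c : ℝ, β < c →
        Tendsto (fun j => satProb k (N j) ⌊c * (N j : ℝ)⌋₊) atTop (𝓝 0)) →
      ∀ c : ℝ, β < c →
        Tendsto (fun n : ℕ => satProb k n ⌊c * (n : ℝ)⌋₊) atTop (𝓝 0)) ∧
    (∀ α : ℝ, 0 < α →
      (∀ c : ℝ, 0 ≤ c → c < α →
        Tendsto (fun j => satProb k (N j) ⌊c * (N j : ℝ)⌋₊) atTop (𝓝 1)) →
      (∀ c : ℝ, α < c →
        Tendsto (fun j => satProb k (N j) ⌊c * (N j : ℝ)⌋₊) atTop (𝓝 0)) →
      HasLimitingThreshold k α) :=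
  ⟨fun α hlow => lower_half k hk α Λ N hN hΛ hlow,
   fun β hβ hhigh => upper_half k hk β Λ hβ N hN hΛ hhigh,
   fun α hα hlow hhigh => subseq_bounded_ratio k hk α Λ hα N hN hΛ hlow hhigh⟩

end Vale.Agent.Results.P170.BoundedRatioSubseq
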