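import Vale.Agent.P170.Thm1

namespace Vale.Agent.Results.P170.SubseqRatioOne

open Filter Topology Vale.Agent.P170

/-- If the threshold behaviour with constant `α` holds along one strictly increasing sequence
`N j` of numbers of variables whose consecutive ratios tend to `1`, then random `k`-SAT has the
limiting threshold `α` (along all `n`). -/
theorem result (k : ℕ) (α : ℝ) (hα : 0 < α) (N : ℕ → ℕ) (hN : StrictMono N)
    (hratio : Tendsto (fun j => (N (j + 1) : ℝ) / (N j : ℝ)) atTop (𝓝 1))
    (hlow : ∀ c : ℝ, 0 ≤ c → c < α →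
      Tendsto (fun j => satProb k (N j) ⌊c * (N j : ℝ)⌋₊) atTop (𝓝 1))
    (hhigh : ∀ c : ℝ, α < c →
      Tendsto (fun j => satProb k (N j) ⌊c * (N j : ℝ)⌋₊) atTop (𝓝 0)) :
    HasLimitingThreshold k α :=
  subseq_ratio_one k α hα N hN hratio hlow hhigh

end Vale.Agent.Results.P170.SubseqRatioOne
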